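import Vale.Agent.Lib.P328.Expand

/-!
# Exact count of contingency tables whose row sums are all at most two

For margins `r : Fin m → ℕ` with every `r i ≤ 2` and `c : Fin n → ℕ` with the same total, the
number of `m × n` tables of natural numbers with row sums `r` and column sums `c` is given by an
explicit finite sum of products of multinomial coefficients.
-/

namespace Vale.Agent.Results.P328.RowSumsAtMostTwo

open Finset

/-- Let `m₂` be the number of rows with `r i = 2`.  Then `2 ^ m₂` times the number of contingency
tables with margins `(r, c)` equals the sum over `k = 0, ..., m₂` of `m₂.choose k` times the sum,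
over all `ℓ : Fin n → ℕ` with `∑ j, ℓ j = k` and `2 * ℓ j ≤ c j` for all `j`, of
`multinomial ℓ * multinomial (c - 2 ℓ)`. -/
theorem result (m n : ℕ) (r : Fin m → ℕ) (c : Fin n → ℕ) (hr : ∀ i, r i ≤ 2)
    (hsum : ∑ i, r i = ∑ j, c j) :
    2 ^ (univ.filter (fun i => r i = 2)).card
        * Nat.card {Y : Fin m → Fin n → ℕ //
            (∀ i, ∑ j, Y i j = r i) ∧ (∀ j, ∑ i, Y i j = c j)}
      = ∑ k ∈ range ((univ.filter (fun i => r i = 2)).card + 1),
          ((univ.filter (fun i => r i = 2)).card).choose k *
            ∑ ℓ ∈ (piAntidiag univ k).filter (fun ℓ : Fin n → ℕ => ∀ j, 2 * ℓ j ≤ c j),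
              Nat.multinomial univ ℓ * Nat.multinomial univ (fun j => c j - 2 * ℓ j) :=
  Vale.Agent.Lib.P328.count_rows_le_two m n r c hr hsum

end Vale.Agent.Results.P328.RowSumsAtMostTwo
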