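import Vale.Agent.Lib.P328.Transpose

/-!
# Exact count of contingency tables when all row sums, or all column sums, are at most two

For margins `r : Fin m → ℕ` and `c : Fin n → ℕ` with the same total, the number of `m × n` tables
of natural numbers with row sums `r` and column sums `c` is given by an explicit finite sum of
products of multinomial coefficients as soon as every `r i ≤ 2`, and also as soon as every
`c j ≤ 2`.
-/

namespace Vale.Agent.Results.P328.RowsOrColumnsAtMostTwo

open Finset

/-- (1) If every `r i ≤ 2` and `m₂` is the number of rows with `r i = 2`, then `2 ^ m₂` times the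
number of tables with margins `(r, c)` equals the sum over `k = 0, ..., m₂` of `m₂.choose k`
times the sum, over all `ℓ : Fin n → ℕ` with `∑ j, ℓ j = k` and `2 * ℓ j ≤ c j` for all `j`, of
`multinomial ℓ * multinomial (c - 2 ℓ)`.
(2) If every `c j ≤ 2` and `n₂` is the number of columns with `c j = 2`, then `2 ^ n₂` times the
number of tables equals the sum over `k = 0, ..., n₂` of `n₂.choose k` times the sum, over all
`ℓ : Fin m → ℕ` with `∑ i, ℓ i = k` and `2 * ℓ i ≤ r i` for all `i`, of
`multinomial ℓ * multinomial (r - 2 ℓ)`. -/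
theorem result (m n : ℕ) (r : Fin m → ℕ) (c : Fin n → ℕ) (hsum : ∑ i, r i = ∑ j, c j) :
    ((∀ i, r i ≤ 2) →
      2 ^ (univ.filter (fun i => r i = 2)).card
          * Nat.card {Y : Fin m → Fin n → ℕ //
              (∀ i, ∑ j, Y i j = r i) ∧ (∀ j, ∑ i, Y i j = c j)}
        = ∑ k ∈ range ((univ.filter (fun i => r i = 2)).card + 1),
            ((univ.filter (fun i => r i = 2)).card).choose k *
              ∑ ℓ ∈ (piAntidiag univ k).filter (fun ℓ : Fin n → ℕ => ∀ j, 2 * ℓ j ≤ c j),
                Nat.multinomial univ ℓ * Nat.multinomial univ (fun j => c j - 2 * ℓ j)) ∧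
    ((∀ j, c j ≤ 2) →
      2 ^ (univ.filter (fun j => c j = 2)).card
          * Nat.card {Y : Fin m → Fin n → ℕ //
              (∀ i, ∑ j, Y i j = r i) ∧ (∀ j, ∑ i, Y i j = c j)}
        = ∑ k ∈ range ((univ.filter (fun j => c j = 2)).card + 1),
            ((univ.filter (fun j => c j = 2)).card).choose k *
              ∑ ℓ ∈ (piAntidiag univ k).filter (fun ℓ : Fin m → ℕ => ∀ i, 2 * ℓ i ≤ r i),
                Nat.multinomial univ ℓ * Nat.multinomial univ (fun i => r i - 2 * ℓ i)) :=
  ⟨fun hr => Vale.Agent.Lib.P328.count_rows_le_two m n r c hr hsum,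
    fun hc => Vale.Agent.Lib.P328.count_cols_le_two m n r c hc hsum⟩

end Vale.Agent.Results.P328.RowsOrColumnsAtMostTwo
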